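import Vale.Agent.P154.D7.K3.Data
import Vale.Agent.P154.ApxLemma

set_option maxRecDepth 100000

namespace Vale.Agent.P154.D7.K3

open PolyR Cert InT OutT

/-- The quotient polynomial for `j = 1`. -/
noncomputable def S1 (u : ℝ) : ℝ :=
  (69 / 8388608 : ℝ) * u ^ 0 + (-2675 / 16777216 : ℝ) * u ^ 1 + (-10921 / 8388608 : ℝ) * u ^ 2 + (66905 / 8388608 : ℝ) * u ^ 3 + (422795 / 16777216 : ℝ) * u ^ 4 + (-505289 / 4194304 : ℝ) * u ^ 5 + (-599957 / 8388608 : ℝ) * u ^ 6 + (9804661 / 16777216 : ℝ) * u ^ 7 + (-8063753 / 16777216 : ℝ) * u ^ 8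

/-- Certificate polynomial. -/
def lpu1 : List ITm := [⟨(-4813075065612792968750000000000000000000000),0,0⟩,⟨(-114487329125404357910156250000000000000000000),1,0⟩,⟨(-573594699787605285644531250000000000000000000),2,0⟩,⟨2332478283719628842468261718750000000000000000,3,0⟩,⟨4891873211305102313527928466796875000000000000,4,0⟩,⟨(-15522493844637064622941982562023437500000000000),5,0⟩,⟨(-6116853694784944440720869411090099906250000000),6,0⟩,⟨33176217249435839198124650918634772685593875000,7,0⟩,⟨(-18111224409863618792191350738173560775671974633),8,0⟩]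

/-- Certificate tree. -/
def tpu1 : OutT := (A (A (A (A (O l) (O l)) (O l)) (A (A (O l) (A (O l) (O l))) (A (A (O l) (A (O l) (O l))) (A (A (O l) (A (O l) (O l))) (A (A (O l) (A (O l) (O l))) (A (A (O l) (O l)) (A (O l) (O l)))))))) (A (A (A (A (A (A (A (O l) (O l)) (A (O l) (O l))) (A (A (O l) (O l)) (A (O l) (O l)))) (A (A (A (O l) (O l)) (O l)) (A (O l) (O l)))) (A (A (A (O l) (O l)) (A (O l) (O l))) (A (O l) (O l)))) (A (A (A (O l) (O l)) (A (O l) (O l))) (A (A (O l) (O l)) (A (O l) (O l))))) (A (A (A (A (O l) (O l)) (A (O l) (O l))) (A (A (A (O l) (O l)) (A (O l) (O l))) (A (A (O l) (O l)) (A (O l) (O l))))) (A (A (A (A (O l) (A (O l) (O l))) (A (A (O l) (O l)) (A (O l) (O l)))) (A (A (A (O l) (A (O l) (O l))) (A (A (O l) (O l)) (A (O l) (O l)))) (A (A (A (O l) (O l)) (A (O l) (A (O l) (O l)))) (A (A (A (O l) (O l)) (A (O l) (O l))) (A (A (O l) (O l)) (A (O l) (O l))))))) (A (A (A (A (A (A (O l) (O l)) (A (O l) (O l))) (A (A (O l) (O l)) (A (O l) (O l)))) (A (A (A (O l) (O l)) (O l)) (A (O l) (O l)))) (A (A (A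 (O l) (O l)) (A (O l) (O l))) (A (O l) (O l)))) (A (A (A (O l) (O l)) (A (O l) (O l))) (A (A (O l) (O l)) (O l))))))))

theorem hpu1 (x : ℝ) (h0 : 0 ≤ x) (h1 : x ≤ 1) : evalIL lpu1 x 0 ≤ 0 :=
  uni_le 8 65536 lpu1 (by norm_num) (by norm_num) (by decide +kernel)
    (chkOut_sound (uniPb 8 65536 lpu1) tpu1 0 32768 0 32768 (by decide +kernel)) x h0 h1

/-- Certificate polynomial. -/
def lpl1 : List ITm := [⟨(-21263957023620605468750000000000000000000000),0,0⟩,⟨97178229689598083496093750000000000000000000,1,0⟩,⟨573594699787605285644531250000000000000000000,2,0⟩,⟨(-2332478283719628842468261718750000000000000000),3,0⟩,⟨(-4891873211305102313527928466796875000000000000),4,0⟩,⟨15522493844637064622941982562023437500000000000,5,0⟩,⟨6116853694784944440720869411090099906250000000,6,0⟩,⟨(-33176217249435839198124650918634772685593875000),7,0⟩,⟨18111224409863618792191350738173560775671974633,8,0⟩]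

/-- Certificate tree. -/
def tpl1 : OutT := (A (A (A (A (O l) (O l)) (A (A (O l) (A (O l) (O l))) (A (A (O l) (A (O l) (O l))) (A (A (O l) (O l)) (O l))))) (A (A (A (A (O l) (O l)) (O l)) (A (O l) (O l))) (A (A (O l) (O l)) (A (O l) (O l))))) (A (A (A (A (O l) (O l)) (A (A (O l) (O l)) (A (O l) (O l)))) (A (A (A (O l) (O l)) (A (A (O l) (O l)) (A (O l) (O l)))) (A (A (A (O l) (O l)) (A (O l) (A (O l) (O l)))) (A (A (A (O l) (O l)) (A (O l) (O l))) (A (A (O l) (A (O l) (O l))) (A (A (O l) (O l)) (A (O l) (O l)))))))) (A (A (A (A (A (A (A (O l) (O l)) (A (O l) (O l))) (A (A (O l) (O l)) (A (O l) (O l)))) (A (A (A (O l) (O l)) (A (O l) (O l))) (A (A (O l) (O l)) (A (O l) (O l))))) (A (A (A (A (O l) (O l)) (A (O l) (O l))) (A (O l) (O l))) (A (A (O l) (O l)) (A (O l) (O l))))) (A (A (A (A (O l) (O l)) (A (O l) (O l))) (A (O l) (O l))) (A (A (O l) (O l)) (A (O l) (O l))))) (A (A (A (A (O l) (O l)) (A (O l) (O l))) (A (A (O l) (O l)) (A (O l) (O l)))) (A (A (A (O l) (O l)) (A (O l) (O l))) (A (A (O l) (O l)) (A (A (O l)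 (O l)) (A (O l) (A (O l) (A (O l) (O l)))))))))))

theorem hpl1 (x : ℝ) (h0 : 0 ≤ x) (h1 : x ≤ 1) : evalIL lpl1 x 0 ≤ 0 :=
  uni_le 8 65536 lpl1 (by norm_num) (by norm_num) (by decide +kernel)
    (chkOut_sound (uniPb 8 65536 lpl1) tpl1 0 32768 0 32768 (by decide +kernel)) x h0 h1

/-- Certificate polynomial. -/
def lnu1 : List ITm := [⟨(-1232147216796875000000000000000000000000000000),0,0⟩,⟨14654378128051757812500000000000000000000000000,1,0⟩,⟨(-36710060786406738281250000000000000000000000000),2,0⟩,⟨(-74639305079028122958984375000000000000000000000),3,0⟩,⟨78269971380881637016446855468750000000000000000,4,0⟩,⟨124179950757096516983535860496187500000000000000,5,0⟩,⟨(-24467414779139777762883477644360399625000000000),6,0⟩,⟨(-66352434498871678396249301837269545371187750000),7,0⟩,⟨(-18111224409863618792191350738173560775671974633),8,0⟩]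

/-- Certificate tree. -/
def tnu1 : OutT := (A (A (A (A (O l) (A (O l) (O l))) (A (A (O l) (O l)) (A (O l) (O l)))) (A (A (O l) (O l)) (O l))) (A (A (O l) (A (O l) (O l))) (A (A (A (O l) (O l)) (A (O l) (A (O l) (O l)))) (A (A (A (A (O l) (O l)) (A (A (O l) (O l)) (A (O l) (O l)))) (A (A (O l) (O l)) (A (O l) (O l)))) (A (A (O l) (O l)) (O l))))))

theorem hnu1 (x : ℝ) (h0 : 0 ≤ x) (h1 : x ≤ 1) : evalIL lnu1 x 0 ≤ 0 :=
  uni_le 8 65536 lnu1 (by norm_num) (by norm_num) (by decide +kernel)
    (chkOut_sound (uniPb 8 65536 lnu1) tnu1 0 32768 0 32768 (by decide +kernel)) x h0 h1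

/-- Certificate polynomial. -/
def lnl1 : List ITm := [⟨(-5443572998046875000000000000000000000000000000),0,0⟩,⟨(-12438813400268554687500000000000000000000000000),1,0⟩,⟨36710060786406738281250000000000000000000000000,2,0⟩,⟨74639305079028122958984375000000000000000000000,3,0⟩,⟨(-78269971380881637016446855468750000000000000000),4,0⟩,⟨(-124179950757096516983535860496187500000000000000),5,0⟩,⟨24467414779139777762883477644360399625000000000,6,0⟩,⟨66352434498871678396249301837269545371187750000,7,0⟩,⟨18111224409863618792191350738173560775671974633,8,0⟩]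

/-- Certificate tree. -/
def tnl1 : OutT := (A (A (O l) (A (O l) (A (O l) (O l)))) (A (A (A (A (O l) (O l)) (A (A (O l) (O l)) (A (O l) (O l)))) (A (A (A (O l) (O l)) (A (O l) (O l))) (A (O l) (O l)))) (A (A (O l) (O l)) (A (O l) (A (O l) (A (O l) (A (O l) (O l))))))))

theorem hnl1 (x : ℝ) (h0 : 0 ≤ x) (h1 : x ≤ 1) : evalIL lnl1 x 0 ≤ 0 :=
  uni_le 8 65536 lnl1 (by norm_num) (by norm_num) (by decide +kernel)
    (chkOut_sound (uniPb 8 65536 lnl1) tnl1 0 32768 0 32768 (by decide +kernel)) x h0 h1

theorem apx1 (u : ℝ) (h0 : -(82971 / 250000 : ℝ) ≤ u) (h1 : u ≤ 2 * (82971 / 250000 : ℝ)) :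
    |((1 + u)⁻¹) ^ 1 - evalZ Ax.p1 (3 * u) / Ax.D1| ≤ Ax.e1 * |u| ^ Ax.m1 := by
  have hu : 0 < 1 + u := by norm_num at h0 ⊢; linarith
  refine apx_of_S 1 2 _ (S1 u) _ u hu ?_ ?_ ?_
  · simp only [Ax, evalZ_cons, evalZ_nil, S1]
    push_cast
    ring
  · rcases le_total 0 u with hs | hs
    · have hx := hpu1 (u / (2 * (82971 / 250000 : ℝ))) (by positivity) (by rw [div_le_one (by norm_num)]; exact h1)
      have e : evalIL lpu1 (u / (2 * (82971 / 250000 : ℝ))) 0 = 1000000000000000000000000000000000000000000000000 * (S1 u - Ax.e1 * (1 + u) ^ 1) := by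
        simp only [lpu1, evalIL, List.map_cons, List.map_nil, List.sum_cons, List.sum_nil, S1, Ax]
        push_cast
        ring
      rw [e] at hx
      have := cmul_nonpos (by norm_num) hx
      simp only [Ax] at this ⊢
      linarith
    · have hx := hnu1 (-u / (82971 / 250000 : ℝ)) (by apply div_nonneg <;> [linarith; norm_num]) (by rw [div_le_one (by norm_num)]; linarith)
      have e : evalIL lnu1 (-u / (82971 / 250000 : ℝ)) 0 = 256000000000000000000000000000000000000000000000000 * (S1 u - Ax.e1 * (1 + u) ^ 1) := by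
        simp only [lnu1, evalIL, List.map_cons, List.map_nil, List.sum_cons, List.sum_nil, S1, Ax]
        push_cast
        ring
      rw [e] at hx
      have := cmul_nonpos (by norm_num) hx
      simp only [Ax] at this ⊢
      linarith
  · rcases le_total 0 u with hs | hs
    · have hx := hpl1 (u / (2 * (82971 / 250000 : ℝ))) (by positivity) (by rw [div_le_one (by norm_num)]; exact h1)
      have e : evalIL lpl1 (u / (2 * (82971 / 250000 : ℝ))) 0 = 1000000000000000000000000000000000000000000000000 * (-S1 u - Ax.e1 * (1 + u) ^ 1) := by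
        simp only [lpl1, evalIL, List.map_cons, List.map_nil, List.sum_cons, List.sum_nil, S1, Ax]
        push_cast
        ring
      rw [e] at hx
      have := cmul_nonpos (by norm_num) hx
      simp only [Ax] at this ⊢
      linarith
    · have hx := hnl1 (-u / (82971 / 250000 : ℝ)) (by apply div_nonneg <;> [linarith; norm_num]) (by rw [div_le_one (by norm_num)]; linarith)
      have e : evalIL lnl1 (-u / (82971 / 250000 : ℝ)) 0 = 256000000000000000000000000000000000000000000000000 * (-S1 u - Ax.e1 * (1 + u) ^ 1) := by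
        simp only [lnl1, evalIL, List.map_cons, List.map_nil, List.sum_cons, List.sum_nil, S1, Ax]
        push_cast
        ring
      rw [e] at hx
      have := cmul_nonpos (by norm_num) hx
      simp only [Ax] at this ⊢
      linarith

/-- The quotient polynomial for `j = 2`. -/
noncomputable def S2 (u : ℝ) : ℝ :=
  (1405 / 16777216 : ℝ) * u ^ 0 + (-28417 / 16777216 : ℝ) * u ^ 1 + (-63423 / 4194304 : ℝ) * u ^ 2 + (1264571 / 16777216 : ℝ) * u ^ 3 + (5724041 / 16777216 : ℝ) * u ^ 4 + (-17914099 / 16777216 : ℝ) * u ^ 5 + (-1991287 / 1048576 : ℝ) * u ^ 6 + (94121659 / 16777216 : ℝ) * u ^ 7 + (4061203 / 8388608 : ℝ) * u ^ 8 + (-39466465 / 8388608 : ℝ) * u ^ 9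

/-- Certificate polynomial. -/
def lpu2 : List ITm := [⟨(-701344106346368789672851562500000000000000000000),0,0⟩,⟨(-16374238066188991069793701171875000000000000000000),1,0⟩,⟨(-84048065627563724666833877563476562500000000000000),2,0⟩,⟨275538487007848326446914672851562500000000000000000,3,0⟩,⟨827862286341846200635908572387695312500000000000000,4,0⟩,⟨(-1719755250582581173377885890997290039062500000000000),5,0⟩,⟨(-2030214039227349236783592471960719146875000000000000),6,0⟩,⟨3981015517595812337857374458507258461378701562500000,7,0⟩,⟨228036991296147582365506142710232690481843102075000,8,0⟩,⟨(-1470940629283541942505576213066087672678011965084383),9,0⟩]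

/-- Certificate tree. -/
def tpu2 : OutT := (A (A (A (A (O l) (O l)) (O l)) (A (A (O l) (A (O l) (O l))) (A (A (O l) (A (O l) (O l))) (A (A (O l) (A (O l) (O l))) (A (A (O l) (A (O l) (O l))) (A (A (O l) (O l)) (A (O l) (O l)))))))) (A (A (A (A (A (A (A (O l) (O l)) (A (O l) (O l))) (A (A (O l) (O l)) (A (O l) (O l)))) (A (A (O l) (O l)) (A (O l) (O l)))) (A (A (A (O l) (O l)) (O l)) (A (O l) (O l)))) (A (A (A (O l) (O l)) (A (O l) (O l))) (A (A (O l) (O l)) (A (O l) (O l))))) (A (A (A (A (O l) (O l)) (A (O l) (O l))) (A (A (O l) (O l)) (A (A (O l) (O l)) (A (O l) (O l))))) (A (A (A (A (O l) (O l)) (A (A (O l) (O l)) (A (O l) (O l)))) (A (A (A (O l) (O l)) (A (O l) (A (O l) (O l)))) (A (A (A (O l) (O l)) (A (O l) (O l))) (A (A (A (O l) (O l)) (A (O l) (O l))) (A (A (O l) (O l)) (A (O l) (O l))))))) (A (A (A (A (A (A (O l) (O l)) (A (O l) (O l))) (A (A (O l) (O l)) (O l))) (A (A (O l) (O l)) (A (O l) (O l)))) (A (A (A (O l) (O l)) (O l)) (A (O l) (O l)))) (A (A (A (O l) (O l)) (O l)) (A (O l) (O l))))))))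

theorem hpu2 (x : ℝ) (h0 : 0 ≤ x) (h1 : x ≤ 1) : evalIL lpu2 x 0 ≤ 0 :=
  uni_le 9 65536 lpu2 (by norm_num) (by norm_num) (by decide +kernel)
    (chkOut_sound (uniPb 9 65536 lpu2) tpu2 0 32768 0 32768 (by decide +kernel)) x h0 h1

/-- Certificate polynomial. -/
def lpl2 : List ITm := [⟨(-2794957254081964492797851562500000000000000000000),0,0⟩,⟨11732772143371403217315673828125000000000000000000,1,0⟩,⟨82507637351235332340002059936523437500000000000000,2,0⟩,⟨(-275538487007848326446914672851562500000000000000000),3,0⟩,⟨(-827862286341846200635908572387695312500000000000000),4,0⟩,⟨1719755250582581173377885890997290039062500000000000,5,0⟩,⟨2030214039227349236783592471960719146875000000000000,6,0⟩,⟨(-3981015517595812337857374458507258461378701562500000),7,0⟩,⟨(-228036991296147582365506142710232690481843102075000),8,0⟩,⟨1470940629283541942505576213066087672678011965084383,9,0⟩]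

/-- Certificate tree. -/
def tpl2 : OutT := (A (A (A (A (O l) (O l)) (A (A (O l) (A (O l) (O l))) (A (A (A (O l) (O l)) (A (O l) (O l))) (A (O l) (O l))))) (A (A (A (A (O l) (O l)) (O l)) (A (O l) (O l))) (A (A (O l) (O l)) (A (O l) (O l))))) (A (A (A (A (O l) (O l)) (A (O l) (A (O l) (O l)))) (A (A (A (O l) (O l)) (A (O l) (A (O l) (O l)))) (A (A (A (O l) (O l)) (A (O l) (O l))) (A (A (A (O l) (O l)) (A (O l) (O l))) (A (A (O l) (O l)) (A (A (O l) (O l)) (A (O l) (O l)))))))) (A (A (A (A (A (A (A (O l) (O l)) (A (O l) (O l))) (A (A (O l) (O l)) (A (O l) (O l)))) (A (A (A (O l) (O l)) (A (O l) (O l))) (A (A (O l) (O l)) (A (O l) (O l))))) (A (A (A (O l) (O l)) (A (O l) (O l))) (A (A (O l) (O l)) (A (O l) (O l))))) (A (A (A (O l) (O l)) (A (O l) (O l))) (A (A (O l) (O l)) (A (O l) (O l))))) (A (A (A (A (O l) (O l)) (A (O l) (O l))) (A (O l) (O l))) (A (A (A (O l) (O l)) (A (O l) (O l))) (A (A (O l) (O l)) (A (A (O l) (O l)) (A (O l) (A (O l) (A (O l) (O l)))))))))))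

theorem hpl2 (x : ℝ) (h0 : 0 ≤ x) (h1 : x ≤ 1) : evalIL lpl2 x 0 ≤ 0 :=
  uni_le 9 65536 lpl2 (by norm_num) (by norm_num) (by decide +kernel)
    (chkOut_sound (uniPb 9 65536 lpl2) tpl2 0 32768 0 32768 (by decide +kernel)) x h0 h1

/-- Certificate polynomial. -/
def lnu2 : List ITm := [⟨(-359088182449340820312500000000000000000000000000000),0,0⟩,⟨4191804944944381713867187500000000000000000000000000,1,0⟩,⟨(-10758152400328156757354736328125000000000000000000000),2,0⟩,⟨(-17634463168502292892602539062500000000000000000000000),3,0⟩,⟨26491593162939078420349074316406250000000000000000000,4,0⟩,⟨27516084009321298774046174255956640625000000000000000,5,0⟩,⟨(-16241712313818793894268739775685753175000000000000000),6,0⟩,⟨(-15924062070383249351429497834029033845514806250000000),7,0⟩,⟨456073982592295164731012285420465380963686204150000,8,0⟩,⟨1470940629283541942505576213066087672678011965084383,9,0⟩]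

/-- Certificate tree. -/
def tnu2 : OutT := (A (A (A (A (O l) (A (O l) (O l))) (A (A (O l) (O l)) (A (O l) (O l)))) (A (A (O l) (O l)) (O l))) (A (A (O l) (A (O l) (O l))) (A (A (A (O l) (O l)) (A (O l) (A (O l) (A (O l) (O l))))) (A (A (A (A (O l) (O l)) (A (A (O l) (O l)) (A (O l) (O l)))) (A (A (A (O l) (O l)) (O l)) (A (O l) (O l)))) (A (A (O l) (O l)) (O l))))))

theorem hnu2 (x : ℝ) (h0 : 0 ≤ x) (h1 : x ≤ 1) : evalIL lnu2 x 0 ≤ 0 :=
  uni_le 9 65536 lnu2 (by norm_num) (by norm_num) (by decide +kernel)
    (chkOut_sound (uniPb 9 65536 lnu2) tnu2 0 32768 0 32768 (by decide +kernel)) x h0 h1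

/-- Certificate polynomial. -/
def lnl2 : List ITm := [⟨(-1431018114089965820312500000000000000000000000000000),0,0⟩,⟨(-3003589668703079223632812500000000000000000000000000),1,0⟩,⟨10560977580958122539520263671875000000000000000000000,2,0⟩,⟨17634463168502292892602539062500000000000000000000000,3,0⟩,⟨(-26491593162939078420349074316406250000000000000000000),4,0⟩,⟨(-27516084009321298774046174255956640625000000000000000),5,0⟩,⟨16241712313818793894268739775685753175000000000000000,6,0⟩,⟨15924062070383249351429497834029033845514806250000000,7,0⟩,⟨(-456073982592295164731012285420465380963686204150000),8,0⟩,⟨(-1470940629283541942505576213066087672678011965084383),9,0⟩]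

/-- Certificate tree. -/
def tnl2 : OutT := (A (A (O l) (A (O l) (A (O l) (O l)))) (A (A (A (A (O l) (O l)) (A (A (O l) (O l)) (A (A (O l) (O l)) (A (O l) (O l))))) (A (A (A (A (O l) (O l)) (O l)) (A (O l) (O l))) (A (O l) (O l)))) (A (A (A (O l) (O l)) (O l)) (A (O l) (A (O l) (A (O l) (A (O l) (A (O l) (O l)))))))))

theorem hnl2 (x : ℝ) (h0 : 0 ≤ x) (h1 : x ≤ 1) : evalIL lnl2 x 0 ≤ 0 :=
  uni_le 9 65536 lnl2 (by norm_num) (by norm_num) (by decide +kernel)
    (chkOut_sound (uniPb 9 65536 lnl2) tnl2 0 32768 0 32768 (by decide +kernel)) x h0 h1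

theorem apx2 (u : ℝ) (h0 : -(82971 / 250000 : ℝ) ≤ u) (h1 : u ≤ 2 * (82971 / 250000 : ℝ)) :
    |((1 + u)⁻¹) ^ 2 - evalZ Ax.p2 (3 * u) / Ax.D2| ≤ Ax.e2 * |u| ^ Ax.m2 := by
  have hu : 0 < 1 + u := by norm_num at h0 ⊢; linarith
  refine apx_of_S 2 2 _ (S2 u) _ u hu ?_ ?_ ?_
  · simp only [Ax, evalZ_cons, evalZ_nil, S2]
    push_cast
    ring
  · rcases le_total 0 u with hs | hs
    · have hx := hpu2 (u / (2 * (82971 / 250000 : ℝ))) (by positivity) (by rw [div_le_one (by norm_num)]; exact h1)
      have e : evalIL lpu2 (u / (2 * (82971 / 250000 : ℝ))) 0 = 12500000000000000000000000000000000000000000000000000 * (S2 u - Ax.e2 * (1 + u) ^ 2) := by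
        simp only [lpu2, evalIL, List.map_cons, List.map_nil, List.sum_cons, List.sum_nil, S2, Ax]
        push_cast
        ring
      rw [e] at hx
      have := cmul_nonpos (by norm_num) hx
      simp only [Ax] at this ⊢
      linarith
    · have hx := hnu2 (-u / (82971 / 250000 : ℝ)) (by apply div_nonneg <;> [linarith; norm_num]) (by rw [div_le_one (by norm_num)]; linarith)
      have e : evalIL lnu2 (-u / (82971 / 250000 : ℝ)) 0 = 6400000000000000000000000000000000000000000000000000000 * (S2 u - Ax.e2 * (1 + u) ^ 2) := by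
        simp only [lnu2, evalIL, List.map_cons, List.map_nil, List.sum_cons, List.sum_nil, S2, Ax]
        push_cast
        ring
      rw [e] at hx
      have := cmul_nonpos (by norm_num) hx
      simp only [Ax] at this ⊢
      linarith
  · rcases le_total 0 u with hs | hs
    · have hx := hpl2 (u / (2 * (82971 / 250000 : ℝ))) (by positivity) (by rw [div_le_one (by norm_num)]; exact h1)
      have e : evalIL lpl2 (u / (2 * (82971 / 250000 : ℝ))) 0 = 12500000000000000000000000000000000000000000000000000 * (-S2 u - Ax.e2 * (1 + u) ^ 2) := by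
        simp only [lpl2, evalIL, List.map_cons, List.map_nil, List.sum_cons, List.sum_nil, S2, Ax]
        push_cast
        ring
      rw [e] at hx
      have := cmul_nonpos (by norm_num) hx
      simp only [Ax] at this ⊢
      linarith
    · have hx := hnl2 (-u / (82971 / 250000 : ℝ)) (by apply div_nonneg <;> [linarith; norm_num]) (by rw [div_le_one (by norm_num)]; linarith)
      have e : evalIL lnl2 (-u / (82971 / 250000 : ℝ)) 0 = 6400000000000000000000000000000000000000000000000000000 * (-S2 u - Ax.e2 * (1 + u) ^ 2) := by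
        simp only [lnl2, evalIL, List.map_cons, List.map_nil, List.sum_cons, List.sum_nil, S2, Ax]
        push_cast
        ring
      rw [e] at hx
      have := cmul_nonpos (by norm_num) hx
      simp only [Ax] at this ⊢
      linarith

/-- The quotient polynomial for `j = 3`. -/
noncomputable def S3 (u : ℝ) : ℝ :=
  (24519 / 8388608 : ℝ) * u ^ 0 + (87303 / 4194304 : ℝ) * u ^ 1 + (-1215799 / 4194304 : ℝ) * u ^ 2 + (-4600381 / 4194304 : ℝ) * u ^ 3 + (76679579 / 16777216 : ℝ) * u ^ 4 + (87568967 / 8388608 : ℝ) * u ^ 5 + (-50259275 / 2097152 : ℝ) * u ^ 6 + (-200812179 / 8388608 : ℝ) * u ^ 7 + (461563931 / 16777216 : ℝ) * u ^ 8 + (3067743 / 131072 : ℝ) * u ^ 9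

/-- Certificate polynomial. -/
def lpu3 : List ITm := [⟨(-2642031176947057247161865234375000000000000000000),0,0⟩,⟨119672283384134061634540557861328125000000000000000,1,0⟩,⟨(-2059370194749125090427696704864501953125000000000000),2,0⟩,⟨(-5026034127250013605333842337131500244140625000000000),3,0⟩,⟨13862612878443353381708613201141357421875000000000000,4,0⟩,⟨21016573424421566156683259386713684082031250000000000,5,0⟩,⟨(-32026111035974514476236565075816410693359375000000000),6,0⟩,⟨(-21234124249797485954859326168267700714498785156250000),7,0⟩,⟨16198040660006201252555168695393642373870775838921875,8,0⟩,⟨9146940966514595739604008392644234025508517086197328,9,0⟩]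

/-- Certificate tree. -/
def tpu3 : OutT := (A (A (A (A (A (A (O l) (O l)) (A (O l) (O l))) (A (O l) (O l))) (A (O l) (O l))) (A (A (O l) (O l)) (A (O l) (O l)))) (A (A (A (A (O l) (O l)) (A (O l) (A (O l) (O l)))) (A (A (A (O l) (A (O l) (O l))) (A (A (O l) (A (O l) (O l))) (A (A (O l) (O l)) (A (O l) (O l))))) (A (A (A (A (O l) (O l)) (A (O l) (O l))) (A (A (O l) (O l)) (O l))) (A (A (O l) (O l)) (A (O l) (O l)))))) (A (A (A (A (O l) (O l)) (A (O l) (O l))) (A (A (O l) (O l)) (O l))) (A (A (O l) (O l)) (A (A (O l) (O l)) (A (O l) (A (O l) (A (O l) (A (O l) (O l))))))))))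

theorem hpu3 (x : ℝ) (h0 : 0 ≤ x) (h1 : x ≤ 1) : evalIL lpu3 x 0 ≤ 0 :=
  uni_le 9 65536 lpu3 (by norm_num) (by norm_num) (by decide +kernel)
    (chkOut_sound (uniPb 9 65536 lpu3) tpu3 0 32768 0 32768 (by decide +kernel)) x h0 h1

/-- Certificate polynomial. -/
def lpl3 : List ITm := [⟨(-93982424004934728145599365234375000000000000000000),0,0⟩,⟨(-312080947485635988414287567138671875000000000000000),1,0⟩,⟨1931655480595799359492957592010498046875000000000000,2,0⟩,⟨4997776480455305367410145699977874755859375000000000,3,0⟩,⟨(-13862612878443353381708613201141357421875000000000000),4,0⟩,⟨(-21016573424421566156683259386713684082031250000000000),5,0⟩,⟨32026111035974514476236565075816410693359375000000000,6,0⟩,⟨21234124249797485954859326168267700714498785156250000,7,0⟩,⟨(-16198040660006201252555168695393642373870775838921875),8,0⟩,⟨(-9146940966514595739604008392644234025508517086197328),9,0⟩]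

/-- Certificate tree. -/
def tpl3 : OutT := (A (A (A (O l) (A (O l) (O l))) (A (A (A (O l) (O l)) (A (A (O l) (O l)) (A (A (O l) (O l)) (A (O l) (O l))))) (A (A (A (A (O l) (O l)) (O l)) (A (O l) (O l))) (A (O l) (O l))))) (A (A (A (A (O l) (O l)) (A (O l) (O l))) (A (A (O l) (O l)) (A (O l) (O l)))) (A (A (A (O l) (O l)) (A (A (O l) (O l)) (A (O l) (A (O l) (O l))))) (A (A (A (A (O l) (O l)) (A (A (O l) (O l)) (A (O l) (O l)))) (A (A (A (O l) (A (O l) (O l))) (A (A (O l) (O l)) (A (O l) (O l)))) (A (A (A (O l) (O l)) (O l)) (A (O l) (O l))))) (A (A (A (A (O l) (O l)) (O l)) (A (O l) (O l))) (A (O l) (O l)))))))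

theorem hpl3 (x : ℝ) (h0 : 0 ≤ x) (h1 : x ≤ 1) : evalIL lpl3 x 0 ≤ 0 :=
  uni_le 9 65536 lpl3 (by norm_num) (by norm_num) (by decide +kernel)
    (chkOut_sound (uniPb 9 65536 lpl3) tpl3 0 32768 0 32768 (by decide +kernel)) x h0 h1

/-- Certificate polynomial. -/
def lnu3 : List ITm := [⟨(-676359981298446655273437500000000000000000000000000),0,0⟩,⟨(-15318052273169159889221191406250000000000000000000000),1,0⟩,⟨(-131799692463944005787372589111328125000000000000000000),2,0⟩,⟨160833092072000435370682954788208007812500000000000000,3,0⟩,⟨221801806055093654107337811218261718750000000000000000,4,0⟩,⟨(-168132587395372529253466075093709472656250000000000000),5,0⟩,⟨(-128104444143898057904946260303265642773437500000000000),6,0⟩,⟨42468248499594971909718652336535401428997570312500000,7,0⟩,⟨16198040660006201252555168695393642373870775838921875,8,0⟩,⟨(-4573470483257297869802004196322117012754258543098664),9,0⟩]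

/-- Certificate tree. -/
def tnu3 : OutT := (A (A (A (A (O l) (O l)) (O l)) (A (O l) (O l))) (A (A (O l) (A (O l) (O l))) (A (A (A (O l) (O l)) (A (A (O l) (O l)) (A (A (O l) (O l)) (A (O l) (O l))))) (A (A (A (A (O l) (O l)) (A (O l) (O l))) (A (O l) (O l))) (A (A (O l) (O l)) (O l))))))

theorem hnu3 (x : ℝ) (h0 : 0 ≤ x) (h1 : x ≤ 1) : evalIL lnu3 x 0 ≤ 0 :=
  uni_le 9 65536 lnu3 (by norm_num) (by norm_num) (by decide +kernel)
    (chkOut_sound (uniPb 9 65536 lnu3) tnu3 0 32768 0 32768 (by decide +kernel)) x h0 h1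

/-- Certificate polynomial. -/
def lnl3 : List ITm := [⟨(-24059500545263290405273437500000000000000000000000000),0,0⟩,⟨39946361278161406517028808593750000000000000000000000,1,0⟩,⟨123625950758131159007549285888671875000000000000000000,2,0⟩,⟨(-159928847374569771757124662399291992187500000000000000),3,0⟩,⟨(-221801806055093654107337811218261718750000000000000000),4,0⟩,⟨168132587395372529253466075093709472656250000000000000,5,0⟩,⟨128104444143898057904946260303265642773437500000000000,6,0⟩,⟨(-42468248499594971909718652336535401428997570312500000),7,0⟩,⟨(-16198040660006201252555168695393642373870775838921875),8,0⟩,⟨4573470483257297869802004196322117012754258543098664,9,0⟩]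

/-- Certificate tree. -/
def tnl3 : OutT := (A (A (O l) (A (O l) (A (O l) (A (O l) (A (O l) (O l)))))) (A (A (A (A (A (O l) (O l)) (A (O l) (O l))) (A (O l) (O l))) (A (A (O l) (O l)) (O l))) (A (A (O l) (O l)) (A (O l) (A (O l) (A (O l) (A (O l) (A (O l) (O l)))))))))

theorem hnl3 (x : ℝ) (h0 : 0 ≤ x) (h1 : x ≤ 1) : evalIL lnl3 x 0 ≤ 0 :=
  uni_le 9 65536 lnl3 (by norm_num) (by norm_num) (by decide +kernel)
    (chkOut_sound (uniPb 9 65536 lnl3) tnl3 0 32768 0 32768 (by decide +kernel)) x h0 h1

theorem apx3 (u : ℝ) (h0 : -(82971 / 250000 : ℝ) ≤ u) (h1 : u ≤ 2 * (82971 / 250000 : ℝ)) :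
    |((1 + u)⁻¹) ^ 3 - evalZ Ax.p3 (3 * u) / Ax.D3| ≤ Ax.e3 * |u| ^ Ax.m3 := by
  have hu : 0 < 1 + u := by norm_num at h0 ⊢; linarith
  refine apx_of_S 3 2 _ (S3 u) _ u hu ?_ ?_ ?_
  · simp only [Ax, evalZ_cons, evalZ_nil, S3]
    push_cast
    ring
  · rcases le_total 0 u with hs | hs
    · have hx := hpu3 (u / (2 * (82971 / 250000 : ℝ))) (by positivity) (by rw [div_le_one (by norm_num)]; exact h1)
      have e : evalIL lpu3 (u / (2 * (82971 / 250000 : ℝ))) 0 = 15625000000000000000000000000000000000000000000000000 * (S3 u - Ax.e3 * (1 + u) ^ 3) := by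
        simp only [lpu3, evalIL, List.map_cons, List.map_nil, List.sum_cons, List.sum_nil, S3, Ax]
        push_cast
        ring
      rw [e] at hx
      have := cmul_nonpos (by norm_num) hx
      simp only [Ax] at this ⊢
      linarith
    · have hx := hnu3 (-u / (82971 / 250000 : ℝ)) (by apply div_nonneg <;> [linarith; norm_num]) (by rw [div_le_one (by norm_num)]; linarith)
      have e : evalIL lnu3 (-u / (82971 / 250000 : ℝ)) 0 = 4000000000000000000000000000000000000000000000000000000 * (S3 u - Ax.e3 * (1 + u) ^ 3) := by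
        simp only [lnu3, evalIL, List.map_cons, List.map_nil, List.sum_cons, List.sum_nil, S3, Ax]
        push_cast
        ring
      rw [e] at hx
      have := cmul_nonpos (by norm_num) hx
      simp only [Ax] at this ⊢
      linarith
  · rcases le_total 0 u with hs | hs
    · have hx := hpl3 (u / (2 * (82971 / 250000 : ℝ))) (by positivity) (by rw [div_le_one (by norm_num)]; exact h1)
      have e : evalIL lpl3 (u / (2 * (82971 / 250000 : ℝ))) 0 = 15625000000000000000000000000000000000000000000000000 * (-S3 u - Ax.e3 * (1 + u) ^ 3) := by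
        simp only [lpl3, evalIL, List.map_cons, List.map_nil, List.sum_cons, List.sum_nil, S3, Ax]
        push_cast
        ring
      rw [e] at hx
      have := cmul_nonpos (by norm_num) hx
      simp only [Ax] at this ⊢
      linarith
    · have hx := hnl3 (-u / (82971 / 250000 : ℝ)) (by apply div_nonneg <;> [linarith; norm_num]) (by rw [div_le_one (by norm_num)]; linarith)
      have e : evalIL lnl3 (-u / (82971 / 250000 : ℝ)) 0 = 4000000000000000000000000000000000000000000000000000000 * (-S3 u - Ax.e3 * (1 + u) ^ 3) := by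
        simp only [lnl3, evalIL, List.map_cons, List.map_nil, List.sum_cons, List.sum_nil, S3, Ax]
        push_cast
        ring
      rw [e] at hx
      have := cmul_nonpos (by norm_num) hx
      simp only [Ax] at this ⊢
      linarith

/-- The quotient polynomial for `j = 4`. -/
noncomputable def S4 (u : ℝ) : ℝ :=
  (89753 / 16777216 : ℝ) * u ^ 0 + (4565515 / 8388608 : ℝ) * u ^ 1 + (23896961 / 16777216 : ℝ) * u ^ 2 + (-217810717 / 16777216 : ℝ) * u ^ 3 + (-254016857 / 8388608 : ℝ) * u ^ 4 + (1138390663 / 16777216 : ℝ) * u ^ 5 + (2176849605 / 16777216 : ℝ) * u ^ 6 + (-940826219 / 16777216 : ℝ) * u ^ 7 + (-2904921973 / 16777216 : ℝ) * u ^ 8 + (-1184226909 / 16777216 : ℝ) * u ^ 9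

/-- Certificate polynomial. -/
def lpu4 : List ITm := [⟨(-4561204579658806324005126953125000000000000000000000),0,0⟩,⟨31271311095613986253738403320312500000000000000000000,1,0⟩,⟨64619597127561855152249336242675781250000000000000000,2,0⟩,⟨(-480707604728651459674130201339721679687500000000000000),3,0⟩,⟨(-735779264833981605365618476723194122314453125000000000),4,0⟩,⟨1092856146384161278897124253355276611328125000000000000,5,0⟩,⟨1387127593033271224617990382309489117587890625000000000,6,0⟩,⟨(-397936438540675966204537913326045003337083265625000000),7,0⟩,⟨(-815558427728174216192081645789965084882009080506625000),8,0⟩,⟨(-220684507054148852594884572771234821428583211300644079),9,0⟩]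

/-- Certificate tree. -/
def tpu4 : OutT := (A (A (A (A (O l) (O l)) (A (A (O l) (O l)) (A (A (O l) (O l)) (O l)))) (A (A (O l) (O l)) (A (O l) (O l)))) (A (A (A (O l) (O l)) (A (O l) (O l))) (A (A (A (O l) (O l)) (A (A (O l) (O l)) (A (A (O l) (O l)) (A (O l) (O l))))) (A (A (A (A (A (O l) (O l)) (A (O l) (O l))) (A (O l) (O l))) (A (A (O l) (O l)) (O l))) (A (A (O l) (O l)) (O l))))))

theorem hpu4 (x : ℝ) (h0 : 0 ≤ x) (h1 : x ≤ 1) : evalIL lpu4 x 0 ≤ 0 :=
  uni_le 9 65536 lpu4 (by norm_num) (by norm_num) (by decide +kernel)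
    (chkOut_sound (uniPb 9 65536 lpu4) tpu4 0 32768 0 32768 (by decide +kernel)) x h0 h1

/-- Certificate polynomial. -/
def lpl4 : List ITm := [⟨(-5898628500290215015411376953125000000000000000000000),0,0⟩,⟨(-59042921030860394239425659179687500000000000000000000),1,0⟩,⟨(-92270456102809811756014823913574218750000000000000000),2,0⟩,⟨468471767821796535901484727859497070312500000000000000,3,0⟩,⟨733748825585984285604938141562938690185546875000000000,4,0⟩,⟨(-1092856146384161278897124253355276611328125000000000000),5,0⟩,⟨(-1387127593033271224617990382309489117587890625000000000),6,0⟩,⟨397936438540675966204537913326045003337083265625000000,7,0⟩,⟨815558427728174216192081645789965084882009080506625000,8,0⟩,⟨220684507054148852594884572771234821428583211300644079,9,0⟩]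

/-- Certificate tree. -/
def tpl4 : OutT := (A (A (A (O l) (O l)) (A (O l) (A (O l) (A (O l) (O l))))) (A (A (A (A (A (O l) (O l)) (A (O l) (A (O l) (O l)))) (A (A (A (O l) (O l)) (A (O l) (O l))) (A (O l) (O l)))) (A (A (A (O l) (O l)) (O l)) (A (O l) (O l)))) (A (A (O l) (O l)) (A (O l) (A (O l) (A (O l) (A (O l) (A (O l) (O l)))))))))

theorem hpl4 (x : ℝ) (h0 : 0 ≤ x) (h1 : x ≤ 1) : evalIL lpl4 x 0 ≤ 0 :=
  uni_le 9 65536 lpl4 (by norm_num) (by norm_num) (by decide +kernel)
    (chkOut_sound (uniPb 9 65536 lpl4) tpl4 0 32768 0 32768 (by decide +kernel)) x h0 h1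

/-- Certificate polynomial. -/
def lnu4 : List ITm := [⟨(-2335336744785308837890625000000000000000000000000000000),0,0⟩,⟨(-8005455640477180480957031250000000000000000000000000000),1,0⟩,⟨8271308432327917459487915039062500000000000000000000000,2,0⟩,⟨30765286702633693419144332885742187500000000000000000000,3,0⟩,⟨(-23544936474687411371699791255142211914062500000000000000),4,0⟩,⟨(-17485698342146580462353988053684425781250000000000000000),5,0⟩,⟨11097020744266169796943923058475912940703125000000000000,6,0⟩,⟨1591745754162703864818151653304180013348333062500000000,7,0⟩,⟨(-1631116855456348432384163291579930169764018161013250000),8,0⟩,⟨220684507054148852594884572771234821428583211300644079,9,0⟩]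

/-- Certificate tree. -/
def tnu4 : OutT := (A (A (O l) (O l)) (A (A (O l) (A (O l) (A (O l) (O l)))) (A (A (A (O l) (A (O l) (O l))) (A (A (A (O l) (O l)) (A (O l) (O l))) (A (A (O l) (O l)) (A (O l) (O l))))) (A (A (A (O l) (O l)) (O l)) (A (O l) (O l))))))

theorem hnu4 (x : ℝ) (h0 : 0 ≤ x) (h1 : x ≤ 1) : evalIL lnu4 x 0 ≤ 0 :=
  uni_le 9 65536 lnu4 (by norm_num) (by norm_num) (by decide +kernel)
    (chkOut_sound (uniPb 9 65536 lnu4) tnu4 0 32768 0 32768 (by decide +kernel)) x h0 h1

/-- Certificate polynomial. -/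
def lnl4 : List ITm := [⟨(-3020097792148590087890625000000000000000000000000000000),0,0⟩,⟨15114987783900260925292968750000000000000000000000000000,1,0⟩,⟨(-11810618381159655904769897460937500000000000000000000000),2,0⟩,⟨(-29982193140594978297695022583007812500000000000000000000),3,0⟩,⟨23479962418751497139358020530014038085937500000000000000,4,0⟩,⟨17485698342146580462353988053684425781250000000000000000,5,0⟩,⟨(-11097020744266169796943923058475912940703125000000000000),6,0⟩,⟨(-1591745754162703864818151653304180013348333062500000000),7,0⟩,⟨1631116855456348432384163291579930169764018161013250000,8,0⟩,⟨(-220684507054148852594884572771234821428583211300644079),9,0⟩]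

/-- Certificate tree. -/
def tnl4 : OutT := (A (A (A (O l) (O l)) (A (A (O l) (A (O l) (O l))) (A (A (O l) (O l)) (A (O l) (O l))))) (A (A (A (O l) (O l)) (A (O l) (O l))) (A (A (O l) (O l)) (A (O l) (A (O l) (A (O l) (A (O l) (O l))))))))

theorem hnl4 (x : ℝ) (h0 : 0 ≤ x) (h1 : x ≤ 1) : evalIL lnl4 x 0 ≤ 0 :=
  uni_le 9 65536 lnl4 (by norm_num) (by norm_num) (by decide +kernel)
    (chkOut_sound (uniPb 9 65536 lnl4) tnl4 0 32768 0 32768 (by decide +kernel)) x h0 h1

theorem apx4 (u : ℝ) (h0 : -(82971 / 250000 : ℝ) ≤ u) (h1 : u ≤ 2 * (82971 / 250000 : ℝ)) :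
    |((1 + u)⁻¹) ^ 4 - evalZ Ax.p4 (3 * u) / Ax.D4| ≤ Ax.e4 * |u| ^ Ax.m4 := by
  have hu : 0 < 1 + u := by norm_num at h0 ⊢; linarith
  refine apx_of_S 4 2 _ (S4 u) _ u hu ?_ ?_ ?_
  · simp only [Ax, evalZ_cons, evalZ_nil, S4]
    push_cast
    ring
  · rcases le_total 0 u with hs | hs
    · have hx := hpu4 (u / (2 * (82971 / 250000 : ℝ))) (by positivity) (by rw [div_le_one (by norm_num)]; exact h1)
      have e : evalIL lpu4 (u / (2 * (82971 / 250000 : ℝ))) 0 = 125000000000000000000000000000000000000000000000000000 * (S4 u - Ax.e4 * (1 + u) ^ 4) := by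
        simp only [lpu4, evalIL, List.map_cons, List.map_nil, List.sum_cons, List.sum_nil, S4, Ax]
        push_cast
        ring
      rw [e] at hx
      have := cmul_nonpos (by norm_num) hx
      simp only [Ax] at this ⊢
      linarith
    · have hx := hnu4 (-u / (82971 / 250000 : ℝ)) (by apply div_nonneg <;> [linarith; norm_num]) (by rw [div_le_one (by norm_num)]; linarith)
      have e : evalIL lnu4 (-u / (82971 / 250000 : ℝ)) 0 = 64000000000000000000000000000000000000000000000000000000 * (S4 u - Ax.e4 * (1 + u) ^ 4) := by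
        simp only [lnu4, evalIL, List.map_cons, List.map_nil, List.sum_cons, List.sum_nil, S4, Ax]
        push_cast
        ring
      rw [e] at hx
      have := cmul_nonpos (by norm_num) hx
      simp only [Ax] at this ⊢
      linarith
  · rcases le_total 0 u with hs | hs
    · have hx := hpl4 (u / (2 * (82971 / 250000 : ℝ))) (by positivity) (by rw [div_le_one (by norm_num)]; exact h1)
      have e : evalIL lpl4 (u / (2 * (82971 / 250000 : ℝ))) 0 = 125000000000000000000000000000000000000000000000000000 * (-S4 u - Ax.e4 * (1 + u) ^ 4) := by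
        simp only [lpl4, evalIL, List.map_cons, List.map_nil, List.sum_cons, List.sum_nil, S4, Ax]
        push_cast
        ring
      rw [e] at hx
      have := cmul_nonpos (by norm_num) hx
      simp only [Ax] at this ⊢
      linarith
    · have hx := hnl4 (-u / (82971 / 250000 : ℝ)) (by apply div_nonneg <;> [linarith; norm_num]) (by rw [div_le_one (by norm_num)]; linarith)
      have e : evalIL lnl4 (-u / (82971 / 250000 : ℝ)) 0 = 64000000000000000000000000000000000000000000000000000000 * (-S4 u - Ax.e4 * (1 + u) ^ 4) := by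
        simp only [lnl4, evalIL, List.map_cons, List.map_nil, List.sum_cons, List.sum_nil, S4, Ax]
        push_cast
        ring
      rw [e] at hx
      have := cmul_nonpos (by norm_num) hx
      simp only [Ax] at this ⊢
      linarith

/-- The quotient polynomial for `j = 5`. -/
noncomputable def S5 (u : ℝ) : ℝ :=
  (93297 / 4194304 : ℝ) * u ^ 0 + (28289487 / 16777216 : ℝ) * u ^ 1 + (91896609 / 16777216 : ℝ) * u ^ 2 + (-614364593 / 16777216 : ℝ) * u ^ 3 + (-2108420867 / 16777216 : ℝ) * u ^ 4 + (2170693627 / 16777216 : ℝ) * u ^ 5 + (9725641717 / 16777216 : ℝ) * u ^ 6 + (3035637289 / 16777216 : ℝ) * u ^ 7 + (-11494118849 / 16777216 : ℝ) * u ^ 8 + (-5855198961 / 8388608 : ℝ) * u ^ 9 + (-1661145563 / 8388608 : ℝ) * u ^ 10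

/-- Certificate polynomial. -/
def lpu5 : List ITm := [⟨(-820063709397800266742706298828125000000000000000000000000),0,0⟩,⟨5445621945661143399775028228759765625000000000000000000000,1,0⟩,⟨14475193128845635576173663139343261718750000000000000000000,2,0⟩,⟨(-86571751415097591457489773631095886230468750000000000000000),3,0⟩,⟨(-191551354646418508022497826808035373687744140625000000000000),4,0⟩,⟨130113694079028297398417536395378517627716064453125000000000,5,0⟩,⟨387334578449385493696072444417156524433227539062500000000000,6,0⟩,⟨80247995531118158753489674132024284273147166992187500000000,7,0⟩,⟨(-201686258351766310649912735397535649600264356077257812500000),8,0⟩,⟨(-136391903294887206077339514373957598644178097555539361375000),9,0⟩,⟨(-25684489291412555357329435355165639537012802614326978148163),10,0⟩]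

/-- Certificate tree. -/
def tpu5 : OutT := (A (A (A (A (O l) (O l)) (A (A (O l) (O l)) (A (O l) (O l)))) (A (A (O l) (O l)) (A (O l) (O l)))) (A (A (O l) (A (O l) (O l))) (A (A (A (O l) (O l)) (A (A (O l) (O l)) (A (A (O l) (O l)) (A (O l) (O l))))) (A (A (A (A (O l) (A (O l) (O l))) (A (O l) (O l))) (A (A (O l) (O l)) (O l))) (A (A (O l) (O l)) (O l))))))

theorem hpu5 (x : ℝ) (h0 : 0 ≤ x) (h1 : x ≤ 1) : evalIL lpu5 x 0 ≤ 0 :=
  uni_le 10 65536 lpu5 (by norm_num) (by norm_num) (by decide +kernel)
    (chkOut_sound (uniPb 10 65536 lpu5) tpu5 0 32768 0 32768 (by decide +kernel)) x h0 h1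

/-- Certificate polynomial. -/
def lpl5 : List ITm := [⟨(-1167622118373401463031768798828125000000000000000000000000),0,0⟩,⟨(-12042433178301318548619747161865234375000000000000000000000),1,0⟩,⟨(-23232697525379843132570385932922363281250000000000000000000),2,0⟩,⟨80758800236818873576195433735847473144531250000000000000000,3,0⟩,⟨189622129157566654017182336106240749359130859375000000000000,4,0⟩,⟨(-130369805707885140884297586921808280467987060546875000000000),5,0⟩,⟨(-387334578449385493696072444417156524433227539062500000000000),6,0⟩,⟨(-80247995531118158753489674132024284273147166992187500000000),7,0⟩,⟨201686258351766310649912735397535649600264356077257812500000,8,0⟩,⟨136391903294887206077339514373957598644178097555539361375000,9,0⟩,⟨25684489291412555357329435355165639537012802614326978148163,10,0⟩]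

/-- Certificate tree. -/
def tpl5 : OutT := (A (A (A (O l) (O l)) (A (O l) (A (O l) (A (O l) (O l))))) (A (A (A (A (A (O l) (O l)) (A (O l) (A (O l) (O l)))) (A (A (A (O l) (O l)) (A (O l) (O l))) (A (O l) (O l)))) (A (A (A (O l) (O l)) (O l)) (A (O l) (O l)))) (A (A (O l) (O l)) (A (O l) (A (O l) (A (O l) (A (O l) (A (O l) (O l)))))))))

theorem hpl5 (x : ℝ) (h0 : 0 ≤ x) (h1 : x ≤ 1) : evalIL lpl5 x 0 ≤ 0 :=
  uni_le 10 65536 lpl5 (by norm_num) (by norm_num) (by decide +kernel)
    (chkOut_sound (uniPb 10 65536 lpl5) tpl5 0 32768 0 32768 (by decide +kernel)) x h0 h1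

/-- Certificate polynomial. -/
def lnu5 : List ITm := [⟨(-839745238423347473144531250000000000000000000000000000000000),0,0⟩,⟨(-2788158436178505420684814453125000000000000000000000000000000),1,0⟩,⟨3705649440984482707500457763671875000000000000000000000000000,2,0⟩,⟨11081184181132491706558691024780273437500000000000000000000000,3,0⟩,⟨(-12259286697370784513439860915714263916015625000000000000000000),4,0⟩,⟨(-4163638210528905516749361164652112564086914062500000000000000),5,0⟩,⟨6197353255190167899137159110674504390931640625000000000000000,6,0⟩,⟨(-641983964248945270027917393056194274185177335937500000000000),7,0⟩,⟨(-806745033407065242599650941590142598401057424309031250000000),8,0⟩,⟨272783806589774412154679028747915197288356195111078722750000,9,0⟩,⟨(-25684489291412555357329435355165639537012802614326978148163),10,0⟩]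

/-- Certificate tree. -/
def tnu5 : OutT := (A (A (O l) (O l)) (A (A (O l) (A (O l) (A (O l) (O l)))) (A (A (A (O l) (A (O l) (O l))) (A (A (A (O l) (O l)) (A (O l) (O l))) (A (A (O l) (O l)) (A (O l) (O l))))) (A (A (A (O l) (O l)) (A (O l) (O l))) (A (O l) (O l))))))

theorem hnu5 (x : ℝ) (h0 : 0 ≤ x) (h1 : x ≤ 1) : evalIL lnu5 x 0 ≤ 0 :=
  uni_le 10 65536 lnu5 (by norm_num) (by norm_num) (by decide +kernel)
    (chkOut_sound (uniPb 10 65536 lnu5) tnu5 0 32768 0 32768 (by decide +kernel)) x h0 h1

/-- Certificate polynomial. -/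
def lnl5 : List ITm := [⟨(-1195645049214363098144531250000000000000000000000000000000000),0,0⟩,⟨6165725787290275096893310546875000000000000000000000000000000,1,0⟩,⟨(-5947570566497239841938018798828125000000000000000000000000000),2,0⟩,⟨(-10337126430312815817753015518188476562500000000000000000000000),3,0⟩,⟨12135816266084265857099669510799407958984375000000000000000000,4,0⟩,⟨4171833782652324508297522781497864974975585937500000000000000,5,0⟩,⟨(-6197353255190167899137159110674504390931640625000000000000000),6,0⟩,⟨641983964248945270027917393056194274185177335937500000000000,7,0⟩,⟨806745033407065242599650941590142598401057424309031250000000,8,0⟩,⟨(-272783806589774412154679028747915197288356195111078722750000),9,0⟩,⟨25684489291412555357329435355165639537012802614326978148163,10,0⟩]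

/-- Certificate tree. -/
def tnl5 : OutT := (A (A (A (O l) (O l)) (A (A (O l) (A (O l) (O l))) (A (A (O l) (O l)) (A (O l) (O l))))) (A (A (A (O l) (O l)) (A (O l) (O l))) (A (A (O l) (O l)) (A (O l) (A (O l) (A (O l) (A (O l) (A (O l) (O l)))))))))

theorem hnl5 (x : ℝ) (h0 : 0 ≤ x) (h1 : x ≤ 1) : evalIL lnl5 x 0 ≤ 0 :=
  uni_le 10 65536 lnl5 (by norm_num) (by norm_num) (by decide +kernel)
    (chkOut_sound (uniPb 10 65536 lnl5) tnl5 0 32768 0 32768 (by decide +kernel)) x h0 h1

theorem apx5 (u : ℝ) (h0 : -(82971 / 250000 : ℝ) ≤ u) (h1 : u ≤ 2 * (82971 / 250000 : ℝ)) :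
    |((1 + u)⁻¹) ^ 5 - evalZ Ax.p5 (3 * u) / Ax.D5| ≤ Ax.e5 * |u| ^ Ax.m5 := by
  have hu : 0 < 1 + u := by norm_num at h0 ⊢; linarith
  refine apx_of_S 5 2 _ (S5 u) _ u hu ?_ ?_ ?_
  · simp only [Ax, evalZ_cons, evalZ_nil, S5]
    push_cast
    ring
  · rcases le_total 0 u with hs | hs
    · have hx := hpu5 (u / (2 * (82971 / 250000 : ℝ))) (by positivity) (by rw [div_le_one (by norm_num)]; exact h1)
      have e : evalIL lpu5 (u / (2 * (82971 / 250000 : ℝ))) 0 = 7812500000000000000000000000000000000000000000000000000000 * (S5 u - Ax.e5 * (1 + u) ^ 5) := by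
        simp only [lpu5, evalIL, List.map_cons, List.map_nil, List.sum_cons, List.sum_nil, S5, Ax]
        push_cast
        ring
      rw [e] at hx
      have := cmul_nonpos (by norm_num) hx
      simp only [Ax] at this ⊢
      linarith
    · have hx := hnu5 (-u / (82971 / 250000 : ℝ)) (by apply div_nonneg <;> [linarith; norm_num]) (by rw [div_le_one (by norm_num)]; linarith)
      have e : evalIL lnu5 (-u / (82971 / 250000 : ℝ)) 0 = 8000000000000000000000000000000000000000000000000000000000000 * (S5 u - Ax.e5 * (1 + u) ^ 5) := by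
        simp only [lnu5, evalIL, List.map_cons, List.map_nil, List.sum_cons, List.sum_nil, S5, Ax]
        push_cast
        ring
      rw [e] at hx
      have := cmul_nonpos (by norm_num) hx
      simp only [Ax] at this ⊢
      linarith
  · rcases le_total 0 u with hs | hs
    · have hx := hpl5 (u / (2 * (82971 / 250000 : ℝ))) (by positivity) (by rw [div_le_one (by norm_num)]; exact h1)
      have e : evalIL lpl5 (u / (2 * (82971 / 250000 : ℝ))) 0 = 7812500000000000000000000000000000000000000000000000000000 * (-S5 u - Ax.e5 * (1 + u) ^ 5) := by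
        simp only [lpl5, evalIL, List.map_cons, List.map_nil, List.sum_cons, List.sum_nil, S5, Ax]
        push_cast
        ring
      rw [e] at hx
      have := cmul_nonpos (by norm_num) hx
      simp only [Ax] at this ⊢
      linarith
    · have hx := hnl5 (-u / (82971 / 250000 : ℝ)) (by apply div_nonneg <;> [linarith; norm_num]) (by rw [div_le_one (by norm_num)]; linarith)
      have e : evalIL lnl5 (-u / (82971 / 250000 : ℝ)) 0 = 8000000000000000000000000000000000000000000000000000000000000 * (-S5 u - Ax.e5 * (1 + u) ^ 5) := by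
        simp only [lnl5, evalIL, List.map_cons, List.map_nil, List.sum_cons, List.sum_nil, S5, Ax]
        push_cast
        ring
      rw [e] at hx
      have := cmul_nonpos (by norm_num) hx
      simp only [Ax] at this ⊢
      linarith

theorem hAx : Ax.OK (-(82971 / 250000 : ℝ)) (2 * (82971 / 250000 : ℝ)) where
  e10 := by simp only [Ax]; norm_num
  e20 := by simp only [Ax]; norm_num
  e30 := by simp only [Ax]; norm_num
  e40 := by simp only [Ax]; norm_num
  e50 := by simp only [Ax]; norm_num
  h1 := fun u a b => by simpa using apx1 u a b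
  h2 := apx2
  h3 := apx3
  h4 := apx4
  h5 := apx5

end Vale.Agent.P154.D7.K3
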