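import Vale.Agent.P154.D7.K3.Charts

set_option maxRecDepth 100000

namespace Vale.Agent.P154.D7.K3

open Cert InT OutT

/-- Certificate tree. -/
def tr00_r11 : OutT :=
(B (A s s) (A (B (A (B s (A (B s (A s s)) s)) (B s (A s s))) (A (B (A (B (A (O (c (c l l) (c (c l l) (d (c k k) (c l (d (d k (c k k)) l)))))) (O (c (c l l) (c (c l l) (d (c k k) (c l (d (c k k) (d l l)))))))) (A (O (c l (c l (d (d k l) (d (c l l) (c l l)))))) (O (c l (c l (d (d k (c k k)) (d (c l l) (c l l)))))))) (B (A s s) (A (O (c l (c l (d (c k k) (c l (d (d k l) l)))))) (O (c l (c l (d (c k k) (c l (d (d k (d l l)) (d l l)))))))))) (A (B (A (O (c l (c l (d l (c l l))))) (O (c l (c l (d l (c l l)))))) (A (O (c l (c l (d l l)))) (O (c l (c l (d l (c l l))))))) (B (A (O (c l (c l (d l (d l (c l l)))))) (O (c l (c l (d l (d l (c l l))))))) (A (O (c l (c l (d l (c l l))))) (O (c l (c l (d l (c l l))))))))) (B (A (B s (A (O (c l (c l (c (c l l) (d k (d (c k k) (d (d (c l k) l) l))))))) s)) (B s (A s s)))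 (A (B (A (O (c l (c l (d (c k k) (d (c l l) (c l l)))))) (O (c l (c l (d (d k l) (d (d l l) (c l l))))))) (A (O (c l (c l (d l (c l l))))) (O (c l (c l (d l (c l l))))))) (B (A (O (c l (c l (d (d k (c k k)) (c l (d (d k l) (d l l))))))) (B s (O (c l (c l (d l (c l l))))))) (A (O (c l (c l (d l (c l (d l l)))))) (O (c l (c l (d l (d l (c l l)))))))))))) (B (A s s) (A (B (A (B s (A s s)) s) (A (B (A (B s (O (c l (c l (d l (c l l)))))) (B s (O (c l (c l (d l (d l l))))))) (A (O (c l (c l (d l (d l (c l (d l l))))))) (B (O (c l (c l (d l l)))) (O (c l (c l l)))))) (B (A (B s (O (c l (c l (d l (d l l)))))) s) (A (B (O (c l (c l (d l l)))) (O (c l (c l (c l l))))) (B (O (c l (c l (d l (c l l))))) (O (c l (c l (d l l))))))))) (B (A s s) (A (B (A s s) (A (B (O (c l (c l (d l (d l l))))) (O (c l (c l (d l l))))) (B (O (c l (c l (d l (d l (c l l)))))) (O (c l (c l (d l (c l l)))))))) (B (A s s) (A (B (O (c l (c l (d l (d l (d l (c l l))))))) (O (c l (c l (d l (d l (c l l)))))))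 (B (A s s) (O (c l (c l (d l (d l (c l (d l l))))))))))))))))

theorem s00_r11 : Sound P00 49152 8192 0 32768 :=
  chkOut2_sound P00 KK tr00_r11 49152 8192 0 32768 (by decide +kernel)

end Vale.Agent.P154.D7.K3
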